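import Vale.Agent.P002.G3
import Vale.Agent.P002.CenA

namespace Vale.Agent.Results.P002.AllAb

open Vale.Agent.P002

theorem result (n N : ℕ) (hn : 2 ≤ n) (hN : 0 < N) :
    ∃ L : IntermediateField ℚ ℂ, FiniteDimensional ℚ L ∧
      (∀ (g h : ℕ) (f : MvPolynomial ((Fin (g + h) × Bool) × Fin n × Fin n) ℂ),
        (∀ (ρ : Rep (g + h) n) (u : Matrix.SpecialLinearGroup (Fin n) ℂ), Cen ρ →
          MvPolynomial.eval (ev ((MulAut.conj u).toMonoidHom.comp ρ)) f =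
            MvPolynomial.eval (ev ρ) f) →
        (∀ σ : Rep (g + h) n, Integral L σ → Cen σ → MvPolynomial.eval (ev σ) f = 0) →
        ∀ ρ : Rep (g + h) n, Cen ρ → MvPolynomial.eval (ev ρ) f = 0) ∧
      (3 ≤ n → ∀ g s : ℕ, 3 ≤ g → ∀ J : Fin s → Matrix.SpecialLinearGroup (Fin n) ℂ,
        (∀ i μ, (J i).1.charpoly.IsRoot μ → μ ^ N = 1) →
        ∀ ρ : RepK g s n, Bdry J ρ → Ssimp ρ →
        ∀ f : MvPolynomial (((Fin g × Bool) ⊕ Fin s) × Fin n × Fin n) ℂ,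
          (∀ σ : RepK g s n, IntegralK L σ → Bdry J σ → Irred σ →
            MvPolynomial.eval (evK σ) f = 0) → MvPolynomial.eval (evK ρ) f = 0) := by
  obtain ⟨L, hL, hR⟩ := exists_L (2 * N * n * n + n)
  exact ⟨L, hL.1, fun g h => final_C (by omega) hL fun k h1 h2 => hR k h1 (by omega),
    fun hn g s hg J hJ => finalT J hn hN hL (fun k h1 h2 => hR k h1 (by omega)) hg hJ⟩

end Vale.Agent.Results.P002.AllAb
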