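import Vale.Agent.P002.RedK
import Vale.Agent.P002.Main2

namespace Vale.Agent.Results.P002.AllY

open Vale.Agent.P002

theorem result (n N : ℕ) (hn : 2 ≤ n) (hN : 0 < N) :
    ∃ L : IntermediateField ℚ ℂ, FiniteDimensional ℚ L ∧
      (∀ (g : ℕ) (f : MvPolynomial ((Fin g × Bool) × Fin n × Fin n) ℂ),
        (∀ (ρ : Rep g n) (u : Matrix.SpecialLinearGroup (Fin n) ℂ),
          MvPolynomial.eval (ev ((MulAut.conj u).toMonoidHom.comp ρ)) f =
            MvPolynomial.eval (ev ρ) f) →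
        (∀ σ : Rep g n, Integral L σ → MvPolynomial.eval (ev σ) f = 0) →
        ∀ ρ : Rep g n, MvPolynomial.eval (ev ρ) f = 0) ∧
      (3 ≤ n → ∀ g s : ℕ, 4 ≤ g → ∀ J : Fin s → Matrix.SpecialLinearGroup (Fin n) ℂ,
        (∀ i μ, (J i).1.charpoly.IsRoot μ → μ ^ N = 1) →
        ∀ ρ : RepK g s n, Bdry J ρ → Ssimp ρ →
        ∀ f : MvPolynomial (((Fin g × Bool) ⊕ Fin s) × Fin n × Fin n) ℂ,
          (∀ σ : RepK g s n, IntegralK L σ → Bdry J σ → Irred σ →
            MvPolynomial.eval (evK σ) f = 0) → MvPolynomial.eval (evK ρ) f = 0) := by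
  obtain ⟨K, hK⟩ := baseZ (n := n) hN (by omega)
  obtain ⟨L, hL, hR⟩ := exists_L (K + N + n)
  exact ⟨L, hL.1, fun g => final_inv (by omega) hL fun k h1 h2 => hR k h1 (by omega),
    fun hn g s hg J hJ => finalS J hn hN hL hR hK hg hJ⟩

end Vale.Agent.Results.P002.AllY
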