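import Vale.Agent.P002.Main2

namespace Vale.Agent.Results.P002.Curves

open Vale.Agent.P002

theorem result (n : ℕ) (hn : 2 ≤ n) :
    ∃ L : IntermediateField ℚ ℂ, FiniteDimensional ℚ L ∧ ∀ g : ℕ,
      (∀ f : MvPolynomial ((Fin g × Bool) × Fin n × Fin n) ℂ,
        (∀ (ρ : Rep g n) (u : Matrix.SpecialLinearGroup (Fin n) ℂ),
          MvPolynomial.eval (ev ((MulAut.conj u).toMonoidHom.comp ρ)) f =
            MvPolynomial.eval (ev ρ) f) →
        (∀ σ : Rep g n, Integral L σ → MvPolynomial.eval (ev σ) f = 0) →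
        ∀ ρ : Rep g n, MvPolynomial.eval (ev ρ) f = 0) ∧
      ∀ ρ : Rep g n, (∀ ξ : Matrix (Fin n) (Fin n) ℂ, (∀ γ, ξ * (ρ γ).1 = (ρ γ).1 * ξ) →
        ∃ c : ℂ, ξ = c • 1) → InClosure L ρ := by
  obtain ⟨L, hL, hR⟩ := exists_L n
  exact ⟨L, hL.1, fun g => ⟨final_inv (by omega) hL hR,
    final_sch hn hL (hR n (by omega) le_rfl)⟩⟩

end Vale.Agent.Results.P002.Curves
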