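import Vale.Agent.P002.TransK

namespace Vale.Agent.Results.P002.Punctured

open Vale.Agent.P002

theorem result (n N : ℕ) (hn : 3 ≤ n) (hN : 0 < N) :
    ∃ L : IntermediateField ℚ ℂ, FiniteDimensional ℚ L ∧ ∀ g s : ℕ, 4 ≤ g →
      ∀ J : Fin s → Matrix.SpecialLinearGroup (Fin n) ℂ,
        (∀ i μ, (J i).1.charpoly.IsRoot μ → μ ^ N = 1) →
        ∀ ρ : RepK g s n, Bdry J ρ → Irred ρ →
        ∀ f : MvPolynomial (((Fin g × Bool) ⊕ Fin s) × Fin n × Fin n) ℂ,
          (∀ σ : RepK g s n, IntegralK L σ → Bdry J σ → Irred σ →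
            MvPolynomial.eval (evK σ) f = 0) → MvPolynomial.eval (evK ρ) f = 0 :=
  finalK n N hn hN

end Vale.Agent.Results.P002.Punctured
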