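import Vale.Agent.P002.Trans

namespace Vale.Agent.Results.P002.Surface

open Vale.Agent.P002

theorem result :
    (∃ L : IntermediateField ℚ ℂ, FiniteDimensional ℚ L ∧ (∃ z ∈ L, (starRingEnd ℂ) z ≠ z) ∧
      3 ≤ Module.finrank ℚ L) ∧
    ∀ L : IntermediateField ℚ ℂ, FiniteDimensional ℚ L → (∃ z ∈ L, (starRingEnd ℂ) z ≠ z) →
      3 ≤ Module.finrank ℚ L → ∀ g n : ℕ, 2 ≤ g → 3 ≤ n →
      (∃ (ρ₀ : Rep g n) (U : Set ((Fin g × Bool) × Fin n × Fin n → ℂ)), IsOpen U ∧ ev ρ₀ ∈ U ∧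
        ∀ ρ : Rep g n, ev ρ ∈ U → InClosure L ρ) ∧
      ((MvPolynomial.vanishingIdeal ℂ (Set.range (ev : Rep g n → _))).IsPrime →
        ∀ ρ : Rep g n, InClosure L ρ) :=
  ⟨exists_goodL, fun _ h1 h2 h3 _ _ hg hn =>
    ⟨final_open hg hn ⟨h1, h2, h3⟩, final_irr hg hn ⟨h1, h2, h3⟩⟩⟩

end Vale.Agent.Results.P002.Surface
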